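import Vale.Agent.P159.T1.H418.Strip
import Vale.Agent.P159.T1.H532.QLim

/-!
The rectangle `[0, w] × [0, T]` with free left, right and lower sides and wired upper side: the
Gaussian bound for the gradient fields of all test functions in the open rectangle.
-/

set_option linter.all false
set_option autoImplicit false

open MeasureTheory Filter Topology
open scoped BigOperators Manifold ContDiff

namespace Vale.Agent.P159.T1.H418

open Vale.Agent.P159 Vale.Agent.P159.UJ Vale.Agent.P159.H950 Vale.Agent.P159.R2.H130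
open Vale.Agent.P159.T1.H931 (chiI)
open Vale.Agent.P159.T1.H532 (GLB mF gF gF_supp df_mF)
open Vale.Agent.P159.T1.H729

theorem floor_bd {c : ℝ} {K : ℕ} (hK : |c| + 1 ≤ K) (N : ℕ) : |⌊c * N⌋| ≤ ((K * N : ℕ) : ℤ) := by
  rcases Nat.eq_zero_or_pos N with h | h
  · subst h
    simp
  · have hN : (1 : ℝ) ≤ N := by exact_mod_cast h
    have h1 := Int.floor_le (c * N)
    have h2 := Int.lt_floor_add_one (c * N)
    have h3 : |c * N| = |c| * N := by rw [abs_mul, abs_of_nonneg (by linarith : (0 : ℝ) ≤ N)]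
    have h4 : (|c| + 1) * N ≤ K * N := mul_le_mul_of_nonneg_right hK (by linarith)
    have h5 := le_abs_self (c * N)
    have h6 := neg_abs_le (c * N)
    rw [h3] at h5 h6
    rw [abs_le]
    constructor
    · have : (-((K * N : ℕ) : ℤ) : ℝ) ≤ (⌊c * N⌋ : ℝ) := by push_cast; nlinarith
      exact_mod_cast this
    · have : (⌊c * N⌋ : ℝ) ≤ (((K * N : ℕ) : ℤ) : ℝ) := by push_cast; nlinarith
      exact_mod_cast this

/-- test functions in a small square -/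
theorem glb_small {b : ℝ} (hb : 0 < b) {φ : ℝ × ℝ → ℝ} (hφ : ContDiff ℝ 2 φ)
    {x0 y0 ρ : ℝ} (hρ : 0 < ρ) (hs : ∀ z ∈ tsupport φ, |z.1 - x0| ≤ ρ ∧ |z.2 - y0| ≤ ρ)
    (hx : 3 * ρ ≤ x0) (hy : 3 * ρ ≤ y0) {w T : ℕ} (hw : x0 + 3 * ρ ≤ w) (hT : y0 + 3 * ρ ≤ T) :
    GLB b (helicity b)
      (fun N => Finset.Ico (0 : ℤ) ((N * w : ℕ) : ℤ) ×ˢ Finset.Ico (0 : ℤ) ((N * T : ℕ) : ℤ))
      (fun N => {v | v.2 < ((N * T : ℕ) : ℤ)}) (smp (mF φ)) := by
  obtain ⟨K, hK⟩ : ∃ K : ℕ, |x0| + |y0| + 3 * ρ + w + T + 2 ≤ K :=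
    exists_nat_ge _
  have hx0 := abs_nonneg x0
  have hy0 := abs_nonneg y0
  have hw0 : (0 : ℝ) ≤ w := Nat.cast_nonneg w
  have hT0 : (0 : ℝ) ≤ T := Nat.cast_nonneg T
  have hρN : ∀ᶠ N : ℕ in atTop, 8 < ρ * N := by
    have h1 : Tendsto (fun N : ℕ => ρ * (N : ℝ)) atTop atTop :=
      tendsto_natCast_atTop_atTop.const_mul_atTop hρ
    exact h1.eventually (eventually_gt_atTop 8)
  have hfl : ∀ N : ℕ, ((⌊ρ / 4 * N⌋₊ : ℕ) : ℝ) ≤ ρ / 4 * N := fun N =>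
    Nat.floor_le (by positivity)
  refine glb_three (δ := ρ / 8) (w := fun N => ⌊ρ / 4 * N⌋₊) (K := K) hb (df_mF hφ)
    (by positivity) ?_ (xl := fun _ => 0) (xr := fun N => ((N * w : ℕ) : ℤ)) (yb := fun _ => 0)
    (yt := fun N => ((N * T : ℕ) : ℤ)) (p := fun N => ⌊(x0 + y0 - 9 / 4 * ρ) * N⌋)
    (q := fun N => -⌊(y0 - x0 - 9 / 4 * ρ) * N⌋) (fun N => ?_) (fun N => ?_) (fun N => ?_)
    (fun N => ?_) (fun N => ?_) (fun N => ?_) (fun N => ?_) ?_ ?_ ?_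
  · filter_upwards [hρN] with N h1
    have h2 := Nat.lt_floor_add_one (ρ / 4 * N)
    linarith
  · have h1 : ((⌊ρ / 4 * N⌋₊ : ℕ) : ℝ) ≤ ((K * N : ℕ) : ℝ) := by
      refine (hfl N).trans ?_
      push_cast
      exact mul_le_mul_of_nonneg_right (by linarith) (Nat.cast_nonneg N)
    exact_mod_cast h1
  · rw [abs_zero]; exact Int.natCast_nonneg _
  · rw [abs_of_nonneg (Int.natCast_nonneg _)]
    have h1 : (w : ℝ) ≤ K := by linarith
    have h2 : w ≤ K := by exact_mod_cast h1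
    have h3 : N * w ≤ K * N := by rw [mul_comm]; exact Nat.mul_le_mul_right N h2
    exact_mod_cast h3
  · rw [abs_zero]; exact Int.natCast_nonneg _
  · rw [abs_of_nonneg (Int.natCast_nonneg _)]
    have h1 : (T : ℝ) ≤ K := by linarith
    have h2 : T ≤ K := by exact_mod_cast h1
    have h3 : N * T ≤ K * N := by rw [mul_comm]; exact Nat.mul_le_mul_right N h2
    exact_mod_cast h3
  · refine floor_bd ?_ N
    have h1 : |x0 + y0 - 9 / 4 * ρ| ≤ |x0| + |y0| + 9 / 4 * ρ := by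
      rw [abs_le]
      have e1 := abs_le.1 (le_refl |x0|)
      have e2 := abs_le.1 (le_refl |y0|)
      constructor <;> linarith [e1.1, e1.2, e2.1, e2.2]
    linarith
  · rw [abs_neg]
    refine floor_bd ?_ N
    have h1 : |y0 - x0 - 9 / 4 * ρ| ≤ |x0| + |y0| + 9 / 4 * ρ := by
      rw [abs_le]
      have e1 := abs_le.1 (le_refl |x0|)
      have e2 := abs_le.1 (le_refl |y0|)
      constructor <;> linarith [e1.1, e1.2, e2.1, e2.2]
    linarith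
  · filter_upwards [hρN] with N h1
    have e1 := Int.lt_floor_add_one ((x0 + y0 - 9 / 4 * ρ) * (N : ℝ))
    have e2 := Int.lt_floor_add_one ((y0 - x0 - 9 / 4 * ρ) * (N : ℝ))
    have e3 := hfl N
    have e4 : 3 * ρ * (N : ℝ) ≤ y0 * N := mul_le_mul_of_nonneg_right hy (Nat.cast_nonneg N)
    have h2 : (-(⌊(y0 - x0 - 9 / 4 * ρ) * (N : ℝ)⌋ : ℝ)) + ((⌊ρ / 4 * N⌋₊ : ℕ) : ℝ) <
        (⌊(x0 + y0 - 9 / 4 * ρ) * (N : ℝ)⌋ : ℝ) - 2 * 0 - ((⌊ρ / 4 * N⌋₊ : ℕ) : ℝ) := by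
      linarith
    exact_mod_cast h2
  · filter_upwards [hρN] with N h1
    have e3 := hfl N
    have e4 : (x0 + 3 * ρ) * (N : ℝ) ≤ w * N := mul_le_mul_of_nonneg_right hw (Nat.cast_nonneg N)
    have e5 : 3 * ρ * (N : ℝ) ≤ x0 * N := mul_le_mul_of_nonneg_right hx (Nat.cast_nonneg N)
    have h2 : 4 * ((⌊ρ / 4 * N⌋₊ : ℕ) : ℝ) ≤ ((N * w : ℕ) : ℝ) - 0 := by
      push_cast
      linarith
    exact_mod_cast h2
  · filter_upwards [hρN, eventually_ge_atTop 1] with N h1 hN c d h2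
    have hN0 : (0 : ℝ) < N := by exact_mod_cast hN
    have h3 := hs _ (gF_supp (z := (((c.1 : ℝ) + 1 / 2) / N, ((c.2 : ℝ) + 1 / 2) / N)) h2)
    simp only at h3
    obtain ⟨h4, h5⟩ := h3
    rw [abs_le] at h4 h5
    have a1 : (x0 - ρ) * N ≤ (c.1 : ℝ) + 1 / 2 := by
      rw [← le_div_iff₀ hN0]; linarith [h4.1]
    have a2 : (c.1 : ℝ) + 1 / 2 ≤ (x0 + ρ) * N := by
      rw [← div_le_iff₀ hN0]; linarith [h4.2]
    have a3 : (y0 - ρ) * N ≤ (c.2 : ℝ) + 1 / 2 := by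
      rw [← le_div_iff₀ hN0]; linarith [h5.1]
    have a4 : (c.2 : ℝ) + 1 / 2 ≤ (y0 + ρ) * N := by
      rw [← div_le_iff₀ hN0]; linarith [h5.2]
    have e1 := Int.floor_le ((x0 + y0 - 9 / 4 * ρ) * (N : ℝ))
    have e2 := Int.floor_le ((y0 - x0 - 9 / 4 * ρ) * (N : ℝ))
    have e3 := hfl N
    have e4 : (x0 + 3 * ρ) * (N : ℝ) ≤ w * N := mul_le_mul_of_nonneg_right hw hN0.le
    have e5 : (y0 + 3 * ρ) * (N : ℝ) ≤ T * N := mul_le_mul_of_nonneg_right hT hN0.le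
    have e6 : 3 * ρ * (N : ℝ) ≤ x0 * N := mul_le_mul_of_nonneg_right hx hN0.le
    have e7 : 3 * ρ * (N : ℝ) ≤ y0 * N := mul_le_mul_of_nonneg_right hy hN0.le
    refine ⟨?_, ?_, ?_, ?_, ?_⟩
    · rw [mem_rct]
      refine ⟨?_, ?_, ?_, ?_⟩
      · have : (0 : ℝ) ≤ (c.1 : ℝ) := by linarith
        exact_mod_cast this
      · have : (c.1 : ℝ) < ((N * w : ℕ) : ℝ) := by push_cast; linarith
        exact_mod_cast this
      · have : (0 : ℝ) ≤ (c.2 : ℝ) := by linarith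
        exact_mod_cast this
      · have : (c.2 : ℝ) < ((N * T : ℕ) : ℝ) := by push_cast; linarith
        exact_mod_cast this
    · have : (⌊(x0 + y0 - 9 / 4 * ρ) * (N : ℝ)⌋ : ℝ) < (c.1 : ℝ) + c.2 := by linarith
      exact_mod_cast this
    · have : (c.1 : ℝ) - c.2 + 1 < -(⌊(y0 - x0 - 9 / 4 * ρ) * (N : ℝ)⌋ : ℝ) := by linarith
      exact_mod_cast this
    · have : (c.1 : ℝ) + 1 < ((N * w : ℕ) : ℝ) - ((⌊ρ / 4 * N⌋₊ : ℕ) : ℝ) := by
        push_cast; linarith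
      exact_mod_cast this
    · have : (0 : ℝ) + ((⌊ρ / 4 * N⌋₊ : ℕ) : ℝ) < (c.1 : ℝ) := by linarith
      exact_mod_cast this

theorem gF_sum {ι : Type*} (s : Finset ι) {φ : ℝ × ℝ → ℝ} {ψ : ι → ℝ × ℝ → ℝ}
    (hψ : ∀ i ∈ s, ContDiff ℝ 2 (ψ i)) (h : ∀ z, φ z = ∑ i ∈ s, ψ i z) (d : Bool) (z : ℝ × ℝ) :
    gF φ d z = ∑ i ∈ s, gF (ψ i) d z := by
  have e : φ = fun z => ∑ i ∈ s, ψ i z := funext h
  have h1 : fderiv ℝ φ z = ∑ i ∈ s, fderiv ℝ (ψ i) z := by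
    rw [e]
    exact fderiv_fun_sum fun i hi => ((hψ i hi).differentiable (by norm_num)) z
  unfold gF
  rw [h1]
  cases d
  · simp only [Bool.false_eq_true, if_false, ContinuousLinearMap.sum_apply]
  · simp only [if_true, ContinuousLinearMap.sum_apply, Finset.sum_neg_distrib]

/-- **the rectangle with three free sides and wired upper side** -/
theorem glb_rect {b : ℝ} (hb : 0 < b) {φ : ℝ × ℝ → ℝ} (hφ : ContDiff ℝ 2 φ)
    (hc : HasCompactSupport φ) {w T : ℕ}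
    (hs : ∀ z ∈ tsupport φ, 0 < z.1 ∧ z.1 < w ∧ 0 < z.2 ∧ z.2 < T) :
    GLB b (helicity b)
      (fun N => Finset.Ico (0 : ℤ) ((N * w : ℕ) : ℤ) ×ˢ Finset.Ico (0 : ℤ) ((N * T : ℕ) : ℤ))
      (fun N => {v | v.2 < ((N * T : ℕ) : ℤ)}) (smp (mF φ)) := by
  classical
  have hm := mod_helicity hb
  obtain ⟨δ, hδ, hd⟩ : ∃ δ : ℝ, 0 < δ ∧ ∀ z ∈ tsupport φ, δ ≤ z.1 ∧ z.1 + δ ≤ w ∧ δ ≤ z.2 ∧
      z.2 + δ ≤ T := by
    rcases (tsupport φ).eq_empty_or_nonempty with h | h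
    · exact ⟨1, one_pos, fun z hz => by rw [h] at hz; exact absurd hz (Set.notMem_empty z)⟩
    · obtain ⟨z0, hz0, h0⟩ := hc.isCompact.exists_isMinOn h
        (f := fun z : ℝ × ℝ => min (min z.1 (w - z.1)) (min z.2 (T - z.2))) (by fun_prop)
      obtain ⟨k1, k2, k3, k4⟩ := hs z0 hz0
      refine ⟨min (min z0.1 (w - z0.1)) (min z0.2 (T - z0.2)),
        lt_min (lt_min k1 (by linarith)) (lt_min k3 (by linarith)), fun z hz => ?_⟩
      have h1 : min (min z0.1 (w - z0.1)) (min z0.2 (T - z0.2)) ≤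
        min (min z.1 (w - z.1)) (min z.2 (T - z.2)) := h0 hz
      have h2 := h1.trans (min_le_left _ _)
      have h3 := h1.trans (min_le_right _ _)
      have h4 := h2.trans (min_le_left _ _)
      have h5 := h2.trans (min_le_right _ _)
      have h6 := h3.trans (min_le_left _ _)
      have h7 := h3.trans (min_le_right _ _)
      exact ⟨h4, by linarith, h6, by linarith⟩
  obtain ⟨ρ, hρ, hρδ⟩ : ∃ ρ : ℝ, 0 < ρ ∧ 3 * ρ ≤ δ := ⟨δ / 3, by positivity, by linarith⟩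
  obtain ⟨t, ht, hcov⟩ := hc.isCompact.elim_nhds_subcover (fun z => Metric.ball z ρ)
    fun z _ => Metric.ball_mem_nhds z hρ
  obtain ⟨f, hf⟩ := SmoothPartitionOfUnity.exists_isSubordinate (𝓘(ℝ, ℝ × ℝ)) (isClosed_tsupport φ)
    (fun i : t => Metric.ball (i : ℝ × ℝ) ρ) (fun i => Metric.isOpen_ball) (by
      intro z hz
      obtain ⟨x, hx⟩ := Set.mem_iUnion.1 (hcov hz)
      obtain ⟨hxt, hzx⟩ := Set.mem_iUnion.1 hx
      exact Set.mem_iUnion.2 ⟨⟨x, hxt⟩, hzx⟩)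
  set ψ : t → ℝ × ℝ → ℝ := fun i z => f i z * φ z with hψ
  have hψc : ∀ i, ContDiff ℝ 2 (ψ i) := fun i =>
    ContDiff.mul (by exact_mod_cast contDiff_infty.1 (f i).contMDiff.contDiff 2) hφ
  have hψs : ∀ i, ∀ z ∈ tsupport (ψ i), |z.1 - (i : ℝ × ℝ).1| ≤ ρ ∧ |z.2 - (i : ℝ × ℝ).2| ≤ ρ := by
    intro i z hz
    have h1 : z ∈ Metric.ball (i : ℝ × ℝ) ρ := hf i (tsupport_mul_subset_left hz)
    rw [Metric.mem_ball, Prod.dist_eq, max_lt_iff, Real.dist_eq, Real.dist_eq] at h1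
    exact ⟨h1.1.le, h1.2.le⟩
  have hsum : ∀ z, φ z = ∑ i, ψ i z := by
    intro z
    rw [← Finset.sum_mul]
    by_cases hz : z ∈ tsupport φ
    · have h1 := f.sum_eq_one hz
      rw [finsum_eq_sum_of_fintype] at h1
      rw [h1, one_mul]
    · rw [image_eq_zero_of_notMem_tsupport hz, mul_zero]
  obtain ⟨K, hK1, hK2⟩ : ∃ K : ℕ, w ≤ K ∧ T ≤ K := ⟨max w T, le_max_left _ _, le_max_right _ _⟩
  have hbw : ∀ N : ℕ, |((N * w : ℕ) : ℤ)| ≤ ((K * N : ℕ) : ℤ) := by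
    intro N
    rw [abs_of_nonneg (Int.natCast_nonneg _)]
    have : N * w ≤ K * N := by rw [mul_comm]; exact Nat.mul_le_mul_right N hK1
    exact_mod_cast this
  have hbT : ∀ N : ℕ, |((N * T : ℕ) : ℤ)| ≤ ((K * N : ℕ) : ℤ) := by
    intro N
    rw [abs_of_nonneg (Int.natCast_nonneg _)]
    have : N * T ≤ K * N := by rw [mul_comm]; exact Nat.mul_le_mul_right N hK2
    exact_mod_cast this
  have hb0 : ∀ N : ℕ, |(0 : ℤ)| ≤ ((K * N : ℕ) : ℤ) := by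
    intro N
    rw [abs_zero]
    exact Int.natCast_nonneg _
  have hU : ∀ g : SF, VF g → H43.UBG b (helicity b)
      (fun N => rct 0 ((N * w : ℕ) : ℤ) 0 ((N * T : ℕ) : ℤ))
      (fun N => chiI (rct 0 ((N * w : ℕ) : ℤ) 0 ((N * T : ℕ) : ℤ)) (fre ((N * T : ℕ) : ℤ))) g := by
    intro g hg
    exact H409.ubg_I' hb hm.lim hg K
      (Eventually.of_forall fun N => rct_bx (hb0 N) (hbw N) (hb0 N) (hbT N))
      (Eventually.of_forall fun N => intR_rct) (thin_rct hb0 hbw hb0 hbT) hm.Y0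
  have key := (H43.GLBG.sum hb.le (Finset.univ : Finset t) (fun i => smp (mF (ψ i))) hU
    (fun i _ => vf_of_cont (df_mF (hψc i)).cont) (fun i _ => by
      have hi := hd _ (ht _ i.2)
      exact glb_small hb (hψc i) hρ (hψs i) (by linarith [hi.1]) (by linarith [hi.2.2.1])
        (by linarith [hi.2.1]) (by linarith [hi.2.2.2]))).1
  have e : (fun N => ∑ i, smp (mF (ψ i)) N) = smp (mF φ) := by
    funext N c d
    rw [Finset.sum_apply, Finset.sum_apply]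
    exact (gF_sum Finset.univ (fun i _ => hψc i) hsum d _).symm
  rw [e] at key
  exact key

end Vale.Agent.P159.T1.H418
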