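import Vale.Agent.P159.T1.H418.Three

/-!
Rectangles with three free sides and one wired side, any aspect ratio: widening by reflections
through vertical lines near the lateral sides.
-/

set_option linter.all false
set_option autoImplicit false

open MeasureTheory Filter Topology
open scoped BigOperators

namespace Vale.Agent.P159.T1.H418

open Vale.Agent.P159 Vale.Agent.P159.UJ Vale.Agent.P159.H950 Vale.Agent.P159.R2.H130
open Vale.Agent.P159.T1.H931 (zI chiI qI zI_pos zI_eq eI eI_cont eI_refl eI_congr)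
open Vale.Agent.P159.T1.H532 (GLB glb_PR)
open Vale.Agent.P159.T1.H729

theorem glb_congr_ev {b Y : ℝ} {E E' : ℕ → Finset (ℤ × ℤ)} {I : ℕ → Set (ℤ × ℤ)} {f : SF}
    (h : ∀ᶠ N in atTop, E N = E' N) (hE : GLB b Y E I f) : GLB b Y E' I f := by
  obtain ⟨C, hC⟩ := hE
  refine ⟨C, fun t => ?_⟩
  filter_upwards [hC t, h] with N h1 h2
  rw [← h2]
  exact h1

/-- number of boundary cells of a rectangle -/
theorem card_bdR_rct (xl xr yb yt : ℤ) :
    (H409.bdR (rct xl xr yb yt)).card ≤ 2 * (xr - xl).toNat + 2 * (yt - yb).toNat := by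
  classical
  have hsub : H409.bdR (rct xl xr yb yt) ⊆
      (({xl, xr - 1} : Finset ℤ) ×ˢ Finset.Ico yb yt) ∪
        (Finset.Ico xl xr ×ˢ ({yb, yt - 1} : Finset ℤ)) := by
    intro c hc
    rw [H409.mem_bdR] at hc
    simp only [mem_rct] at hc
    rw [Finset.mem_union, Finset.mem_product, Finset.mem_product, Finset.mem_insert,
      Finset.mem_singleton, Finset.mem_insert, Finset.mem_singleton, Finset.mem_Ico,
      Finset.mem_Ico]
    omega
  refine (Finset.card_le_card hsub).trans ((Finset.card_union_le _ _).trans ?_)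
  rw [Finset.card_product, Finset.card_product, Int.card_Ico, Int.card_Ico]
  have h1 : (({xl, xr - 1} : Finset ℤ)).card ≤ 2 := Finset.card_le_two
  have h2 : (({yb, yt - 1} : Finset ℤ)).card ≤ 2 := Finset.card_le_two
  have h3 := Nat.mul_le_mul_right (yt - yb).toNat h1
  have h4 := Nat.mul_le_mul_left (xr - xl).toNat h2
  omega

theorem thin_rct {K : ℕ} {xl xr yb yt : ℕ → ℤ} (hxl : ∀ N, |xl N| ≤ ((K * N : ℕ) : ℤ))
    (hxr : ∀ N, |xr N| ≤ ((K * N : ℕ) : ℤ)) (hyb : ∀ N, |yb N| ≤ ((K * N : ℕ) : ℤ))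
    (hyt : ∀ N, |yt N| ≤ ((K * N : ℕ) : ℤ)) :
    H409.Thin (fun N => rct (xl N) (xr N) (yb N) (yt N)) := by
  refine H409.thin_of_le (C := 8 * K) (Eventually.of_forall fun N => ?_)
  have h := card_bdR_rct (xl N) (xr N) (yb N) (yt N)
  have a1 := abs_le.1 (hxl N)
  have a2 := abs_le.1 (hxr N)
  have a3 := abs_le.1 (hyb N)
  have a4 := abs_le.1 (hyt N)
  have h1 : (H409.bdR (rct (xl N) (xr N) (yb N) (yt N))).card ≤ 8 * (K * N) := by omega
  have h2 : ((H409.bdR (rct (xl N) (xr N) (yb N) (yt N))).card : ℝ) ≤ ((8 * (K * N) : ℕ) : ℝ) := by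
    exact_mod_cast h1
  refine h2.trans (le_of_eq ?_)
  push_cast
  ring

theorem intR_rct {xl xr yb yt : ℤ} : intR (rct xl xr yb yt) ⊆ fre yt := by
  intro v hv
  have h1 := mem_rct.1 hv.1
  exact h1.2.2.2

theorem rct_bx {K : ℕ} {xl xr yb yt : ℤ} (hxl : |xl| ≤ K) (hxr : |xr| ≤ K) (hyb : |yb| ≤ K)
    (hyt : |yt| ≤ K) : rct xl xr yb yt ⊆ bx K := by
  intro c hc
  rw [mem_rct] at hc
  rw [abs_le] at hxl hxr hyb hyt
  rw [mem_bx]
  omega

/-- widening at one lateral side; `fl = false`: the right side, `fl = true`: the left side -/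
theorem widen {b : ℝ} (hb : 0 < b) {F : MF} (hF : DF F) (fl : Bool) {K : ℕ} {δ : ℝ} (hδ : 0 < δ)
    {w : ℕ → ℕ} (hw : ∀ᶠ N : ℕ in atTop, δ * N ≤ w N)
    {xl xr yb yt a xl' xr' : ℕ → ℤ} (hxl : ∀ N, |xl' N| ≤ ((K * N : ℕ) : ℤ))
    (hxr : ∀ N, |xr' N| ≤ ((K * N : ℕ) : ℤ)) (hyb : ∀ N, |yb N| ≤ ((K * N : ℕ) : ℤ))
    (hyt : ∀ N, |yt N| ≤ ((K * N : ℕ) : ℤ)) (ha : ∀ N, |a N| ≤ ((K * N : ℕ) : ℤ))
    (hs : ∀ N, xl' N + xr' N = 2 * a N)
    (hin : ∀ᶠ N in atTop, xl' N ≤ xl N ∧ xr N ≤ xr' N ∧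
      (if fl then xl N = a N - w N ∧ xr N = xr' N else xr N = a N + w N ∧ xl N = xl' N))
    (hf : ∀ᶠ N in atTop, ∀ c d, smp F N c d ≠ 0 →
      AV (fun v => (rf Dir.V fl (a N)).lam v < 0) c)
    (h : GLB b (helicity b) (fun N => rct (xl' N) (xr' N) (yb N) (yt N)) (fun N => fre (yt N))
      (smp F)) :
    GLB b (helicity b) (fun N => rct (xl N) (xr N) (yb N) (yt N)) (fun N => fre (yt N))
      (smp F) := by
  have hm := mod_helicity hb
  have hcf := hF.cont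
  have hvf := vf_of_cont hcf
  have ha1 : ∀ N : ℕ, 1 ≤ N → |(a N : ℝ) / N| ≤ K := by
    intro N hN
    have hN0 : (0 : ℝ) < N := by exact_mod_cast hN
    rw [abs_div, abs_of_pos hN0, div_le_iff₀ hN0]
    exact_mod_cast ha N
  have hE : ∀ᶠ N in atTop, rct (xl' N) (xr' N) (yb N) (yt N) ⊆ bx (K * N) :=
    Eventually.of_forall fun N => rct_bx (hxl N) (hxr N) (hyb N) (hyt N)
  have hL : LBZ b (helicity b) (fun N => rct (xl' N) (xr' N) (yb N) (yt N)) (fun N => fre (yt N))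
      (fun N => smp F N - (rf Dir.V fl (a N)).act (smp F N)) := by
    intro t ε hε
    exact H409.lowU hb hm.lim (hvf.sub (rf_vf hcf Dir.V fl ha1)) K hE
      (Eventually.of_forall fun N => intR_rct) (thin_rct hxl hxr hyb hyt) hm.Y0 t hε
  have hSC : ∀ N, SC (rf Dir.V fl (a N)) (rct (xl' N) (xr' N) (yb N) (yt N)) := by
    intro N c
    rw [rf_cm]
    show ((2 * a N - 1 - c.1, c.2) : ℤ × ℤ) ∈ _ ↔ _
    rw [mem_rct, mem_rct]
    have := hs N
    simp only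
    omega
  have hSI : ∀ N, SI (rf Dir.V fl (a N)) (fre (yt N)) := by
    intro N v
    rw [rf_s]
    exact Iff.rfl
  have g := glb_refl hb Dir.V fl hδ hw hE (Eventually.of_forall hSC) (Eventually.of_forall hSI)
    hL (by
      filter_upwards [hf] with N h1 c d h2 t
      exact left_of (h1 c d h2) t) h
  refine glb_congr_ev ?_ g
  filter_upwards [hin] with N h1
  ext c
  rw [mem_cut, mem_rct, mem_rct, AV_iff]
  obtain ⟨h2, h3, h4⟩ := h1
  have h5 := hs N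
  have h6 : (0 : ℤ) ≤ (w N : ℤ) := Int.natCast_nonneg _
  cases fl
  · simp only [Bool.false_eq_true, if_false] at h4
    simp only [rf_lam, eps, Bool.false_eq_true, if_false, Dir.lamZ, one_mul]
    omega
  · simp only [if_true] at h4
    simp only [rf_lam, eps, if_true, Dir.lamZ]
    omega

/-- widening to the right -/
theorem glb_right {b : ℝ} (hb : 0 < b) {F : MF} (hF : DF F) {δ : ℝ} (hδ : 0 < δ)
    {w : ℕ → ℕ} (hw : ∀ᶠ N : ℕ in atTop, δ * N ≤ w N) {yb yt p q : ℕ → ℤ} (j : ℕ) :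
    ∀ (K : ℕ) (xl xr : ℕ → ℤ), (∀ N, w N ≤ K * N) → (∀ N, |xl N| ≤ ((K * N : ℕ) : ℤ)) →
    (∀ N, |xr N| ≤ ((K * N : ℕ) : ℤ)) → (∀ N, |yb N| ≤ ((K * N : ℕ) : ℤ)) →
    (∀ N, |yt N| ≤ ((K * N : ℕ) : ℤ)) → (∀ N, |p N| ≤ ((K * N : ℕ) : ℤ)) →
    (∀ N, |q N| ≤ ((K * N : ℕ) : ℤ)) →
    (∀ᶠ N in atTop, q N + w N < p N - 2 * yb N - w N) →
    (∀ᶠ N in atTop, q N + w N < xr N - yt N + 2 * j * w N) →
    (∀ᶠ N in atTop, xl N ≤ p N - w N - yt N) →
    (∀ᶠ N in atTop, 4 * (w N : ℤ) ≤ xr N - xl N) →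
    (∀ᶠ N in atTop, ∀ c d, smp F N c d ≠ 0 → c ∈ rct (xl N) (xr N) (yb N) (yt N) ∧
      p N < c.1 + c.2 ∧ c.1 - c.2 + 1 < q N ∧ c.1 + 1 < xr N - w N) →
    GLB b (helicity b) (fun N => rct (xl N) (xr N) (yb N) (yt N)) (fun N => fre (yt N))
      (smp F) := by
  induction j with
  | zero =>
    intro K xl xr h0 h1 h2 h3 h4 h5 h6 c1 c2 c3 c4 hf
    refine glb_wide hb hF hδ hw h0 h1 h2 h3 h4 h5 h6 c1 ?_ c3 ?_
    · filter_upwards [c2] with N e
      push_cast at e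
      omega
    · filter_upwards [hf] with N e c d e'
      obtain ⟨e1, e2, e3, e4⟩ := e c d e'
      exact ⟨e1, e2, e3⟩
  | succ j ih =>
    intro K xl xr h0 h1 h2 h3 h4 h5 h6 c1 c2 c3 c4 hf
    have hK : ∀ N : ℕ, ((5 * K * N : ℕ) : ℤ) = 5 * ((K * N : ℕ) : ℤ) := by
      intro N; push_cast; ring
    have hw' : ∀ N, (w N : ℤ) ≤ ((K * N : ℕ) : ℤ) := fun N => by exact_mod_cast h0 N
    have hw0 : ∀ N, (0 : ℤ) ≤ (w N : ℤ) := fun N => Int.natCast_nonneg _
    have hb' : ∀ {x : ℕ → ℤ}, (∀ N, |x N| ≤ ((K * N : ℕ) : ℤ)) →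
        ∀ N, |x N| ≤ ((5 * K * N : ℕ) : ℤ) := by
      intro x hx N
      have e1 := hx N
      have e2 := hK N
      have e3 := abs_nonneg (x N)
      omega
    set xr' : ℕ → ℤ := fun N => 2 * (xr N - w N) - xl N with hxr'
    have hxr1 : ∀ N, |xr' N| ≤ ((5 * K * N : ℕ) : ℤ) := by
      intro N
      have e1 := abs_le.1 (h1 N)
      have e2 := abs_le.1 (h2 N)
      have e3 := hK N
      have e4 := hw' N
      have e5 := hw0 N
      simp only [hxr']
      rw [abs_le]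
      omega
    have ha : ∀ N, |xr N - w N| ≤ ((5 * K * N : ℕ) : ℤ) := by
      intro N
      have e2 := abs_le.1 (h2 N)
      have e3 := hK N
      have e4 := hw' N
      have e5 := hw0 N
      rw [abs_le]
      omega
    have g := ih (5 * K) xl xr' (fun N => by
        have e1 := h0 N
        have : 5 * K * N = 5 * (K * N) := by ring
        omega) (hb' h1) hxr1 (hb' h3) (hb' h4) (hb' h5) (hb' h6) c1 (by
        filter_upwards [c2, c4] with N e1 e2
        have e3 : (2 : ℤ) * ((j + 1 : ℕ) : ℤ) * w N = 2 * j * w N + 2 * w N := by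
          push_cast; ring
        rw [e3] at e1
        simp only [hxr']
        omega) c3 (by
        filter_upwards [c4] with N e2
        have e5 := hw0 N
        simp only [hxr']
        omega) (by
        filter_upwards [hf, c4] with N e e2 c d e'
        obtain ⟨k1, k2, k3, k4⟩ := e c d e'
        have e5 := hw0 N
        rw [mem_rct] at k1
        simp only [hxr', mem_rct]
        omega)
    refine widen hb hF false (a := fun N => xr N - w N) (xl' := xl) (xr' := xr') (K := 5 * K) hδ hw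
      (hb' h1) hxr1 (hb' h3) (hb' h4) ha (fun N => by simp only [hxr']; ring) ?_ ?_ g
    · filter_upwards [c4] with N e2
      have e5 := hw0 N
      refine ⟨le_refl _, ?_, ?_⟩
      · show xr N ≤ 2 * (xr N - w N) - xl N
        omega
      · show xr N = xr N - w N + w N ∧ xl N = xl N
        omega
    · filter_upwards [hf] with N e c d e'
      obtain ⟨k1, k2, k3, k4⟩ := e c d e'
      rw [AV_iff]
      simp only [rf_lam, eps, Bool.false_eq_true, if_false, Dir.lamZ, one_mul]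
      omega

/-- widening to the left -/
theorem glb_left {b : ℝ} (hb : 0 < b) {F : MF} (hF : DF F) {δ : ℝ} (hδ : 0 < δ)
    {w : ℕ → ℕ} (hw : ∀ᶠ N : ℕ in atTop, δ * N ≤ w N) {yb yt p q : ℕ → ℤ} (i j : ℕ) :
    ∀ (K : ℕ) (xl xr : ℕ → ℤ), (∀ N, w N ≤ K * N) → (∀ N, |xl N| ≤ ((K * N : ℕ) : ℤ)) →
    (∀ N, |xr N| ≤ ((K * N : ℕ) : ℤ)) → (∀ N, |yb N| ≤ ((K * N : ℕ) : ℤ)) →
    (∀ N, |yt N| ≤ ((K * N : ℕ) : ℤ)) → (∀ N, |p N| ≤ ((K * N : ℕ) : ℤ)) →
    (∀ N, |q N| ≤ ((K * N : ℕ) : ℤ)) →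
    (∀ᶠ N in atTop, q N + w N < p N - 2 * yb N - w N) →
    (∀ᶠ N in atTop, q N + w N < xr N - yt N + 2 * j * w N) →
    (∀ᶠ N in atTop, xl N ≤ p N - w N - yt N + 2 * i * w N) →
    (∀ᶠ N in atTop, 4 * (w N : ℤ) ≤ xr N - xl N) →
    (∀ᶠ N in atTop, ∀ c d, smp F N c d ≠ 0 → c ∈ rct (xl N) (xr N) (yb N) (yt N) ∧
      p N < c.1 + c.2 ∧ c.1 - c.2 + 1 < q N ∧ c.1 + 1 < xr N - w N ∧ xl N + w N < c.1) →
    GLB b (helicity b) (fun N => rct (xl N) (xr N) (yb N) (yt N)) (fun N => fre (yt N))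
      (smp F) := by
  induction i with
  | zero =>
    intro K xl xr h0 h1 h2 h3 h4 h5 h6 c1 c2 c3 c4 hf
    refine glb_right hb hF hδ hw j K xl xr h0 h1 h2 h3 h4 h5 h6 c1 c2 ?_ c4 ?_
    · filter_upwards [c3] with N e
      push_cast at e
      omega
    · filter_upwards [hf] with N e c d e'
      obtain ⟨e1, e2, e3, e4, e5⟩ := e c d e'
      exact ⟨e1, e2, e3, e4⟩
  | succ i ih =>
    intro K xl xr h0 h1 h2 h3 h4 h5 h6 c1 c2 c3 c4 hf
    have hK : ∀ N : ℕ, ((5 * K * N : ℕ) : ℤ) = 5 * ((K * N : ℕ) : ℤ) := by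
      intro N; push_cast; ring
    have hw' : ∀ N, (w N : ℤ) ≤ ((K * N : ℕ) : ℤ) := fun N => by exact_mod_cast h0 N
    have hw0 : ∀ N, (0 : ℤ) ≤ (w N : ℤ) := fun N => Int.natCast_nonneg _
    have hb' : ∀ {x : ℕ → ℤ}, (∀ N, |x N| ≤ ((K * N : ℕ) : ℤ)) →
        ∀ N, |x N| ≤ ((5 * K * N : ℕ) : ℤ) := by
      intro x hx N
      have e1 := hx N
      have e2 := hK N
      have e3 := abs_nonneg (x N)
      omega
    set xl' : ℕ → ℤ := fun N => 2 * (xl N + w N) - xr N with hxl'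
    have hxl1 : ∀ N, |xl' N| ≤ ((5 * K * N : ℕ) : ℤ) := by
      intro N
      have e1 := abs_le.1 (h1 N)
      have e2 := abs_le.1 (h2 N)
      have e3 := hK N
      have e4 := hw' N
      have e5 := hw0 N
      simp only [hxl']
      rw [abs_le]
      omega
    have ha : ∀ N, |xl N + w N| ≤ ((5 * K * N : ℕ) : ℤ) := by
      intro N
      have e2 := abs_le.1 (h1 N)
      have e3 := hK N
      have e4 := hw' N
      have e5 := hw0 N
      rw [abs_le]
      omega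
    have g := ih (5 * K) xl' xr (fun N => by
        have e1 := h0 N
        have : 5 * K * N = 5 * (K * N) := by ring
        omega) hxl1 (hb' h2) (hb' h3) (hb' h4) (hb' h5) (hb' h6) c1 c2 (by
        filter_upwards [c3, c4] with N e1 e2
        have e3 : (2 : ℤ) * ((i + 1 : ℕ) : ℤ) * w N = 2 * i * w N + 2 * w N := by
          push_cast; ring
        rw [e3] at e1
        simp only [hxl']
        omega) (by
        filter_upwards [c4] with N e2
        have e5 := hw0 N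
        simp only [hxl']
        omega) (by
        filter_upwards [hf, c4] with N e e2 c d e'
        obtain ⟨k1, k2, k3, k4, k5⟩ := e c d e'
        have e5 := hw0 N
        rw [mem_rct] at k1
        simp only [hxl', mem_rct]
        omega)
    refine widen hb hF true (a := fun N => xl N + w N) (xl' := xl') (xr' := xr) (K := 5 * K) hδ hw
      hxl1 (hb' h2) (hb' h3) (hb' h4) ha (fun N => by simp only [hxl']; ring) ?_ ?_ g
    · filter_upwards [c4] with N e2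
      have e5 := hw0 N
      refine ⟨?_, le_refl _, ?_⟩
      · show 2 * (xl N + w N) - xr N ≤ xl N
        omega
      · show xl N = xl N + w N - w N ∧ xr N = xr N
        omega
    · filter_upwards [hf] with N e c d e'
      obtain ⟨k1, k2, k3, k4, k5⟩ := e c d e'
      rw [AV_iff]
      simp only [rf_lam, eps, if_true, Dir.lamZ]
      omega

/-- **rectangles with three free sides, any aspect ratio** -/
theorem glb_three {b : ℝ} (hb : 0 < b) {F : MF} (hF : DF F) {δ : ℝ} (hδ : 0 < δ)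
    {w : ℕ → ℕ} (hw : ∀ᶠ N : ℕ in atTop, δ * N ≤ w N) {K : ℕ} {xl xr yb yt p q : ℕ → ℤ}
    (h0 : ∀ N, w N ≤ K * N) (h1 : ∀ N, |xl N| ≤ ((K * N : ℕ) : ℤ))
    (h2 : ∀ N, |xr N| ≤ ((K * N : ℕ) : ℤ)) (h3 : ∀ N, |yb N| ≤ ((K * N : ℕ) : ℤ))
    (h4 : ∀ N, |yt N| ≤ ((K * N : ℕ) : ℤ)) (h5 : ∀ N, |p N| ≤ ((K * N : ℕ) : ℤ))
    (h6 : ∀ N, |q N| ≤ ((K * N : ℕ) : ℤ))
    (c1 : ∀ᶠ N in atTop, q N + w N < p N - 2 * yb N - w N)
    (c4 : ∀ᶠ N in atTop, 4 * (w N : ℤ) ≤ xr N - xl N)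
    (hf : ∀ᶠ N in atTop, ∀ c d, smp F N c d ≠ 0 → c ∈ rct (xl N) (xr N) (yb N) (yt N) ∧
      p N < c.1 + c.2 ∧ c.1 - c.2 + 1 < q N ∧ c.1 + 1 < xr N - w N ∧ xl N + w N < c.1) :
    GLB b (helicity b) (fun N => rct (xl N) (xr N) (yb N) (yt N)) (fun N => fre (yt N))
      (smp F) := by
  obtain ⟨j, hj⟩ : ∃ j : ℕ, 5 * (K : ℝ) + 1 ≤ 2 * j * δ := by
    obtain ⟨j, hj⟩ := exists_nat_ge ((5 * (K : ℝ) + 1) / (2 * δ))
    refine ⟨j, ?_⟩
    rw [div_le_iff₀ (by positivity)] at hj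
    linarith
  have key : ∀ᶠ N : ℕ in atTop, 5 * ((K * N : ℕ) : ℤ) + 1 ≤ 2 * j * w N := by
    filter_upwards [hw, eventually_ge_atTop 1] with N e1 hN
    have hN0 : (1 : ℝ) ≤ N := by exact_mod_cast hN
    have e2 : 2 * (j : ℝ) * (δ * N) ≤ 2 * j * w N := mul_le_mul_of_nonneg_left e1 (by positivity)
    have e3 : (5 * (K : ℝ) + 1) * N ≤ 2 * j * δ * N := mul_le_mul_of_nonneg_right hj (by positivity)
    have e4 : 5 * ((K : ℝ) * N) + 1 ≤ 2 * j * w N := by nlinarith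
    have e5 : ((5 * ((K * N : ℕ) : ℤ) + 1 : ℤ) : ℝ) ≤ ((2 * j * w N : ℤ) : ℝ) := by
      push_cast
      linarith
    exact_mod_cast e5
  refine glb_left hb hF hδ hw j j K xl xr h0 h1 h2 h3 h4 h5 h6 c1 ?_ ?_ c4 hf
  · filter_upwards [key] with N e
    have a1 := abs_le.1 (h2 N)
    have a2 := abs_le.1 (h4 N)
    have a3 := abs_le.1 (h6 N)
    have a4 : (w N : ℤ) ≤ ((K * N : ℕ) : ℤ) := by exact_mod_cast h0 N
    omega
  · filter_upwards [key] with N e
    have a1 := abs_le.1 (h1 N)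
    have a2 := abs_le.1 (h4 N)
    have a3 := abs_le.1 (h5 N)
    have a4 : (w N : ℤ) ≤ ((K * N : ℕ) : ℤ) := by exact_mod_cast h0 N
    omega

end Vale.Agent.P159.T1.H418
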