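import Vale.Agent.P159.T1.H729.V3
import Vale.Agent.P159.T1.H409.Ub

/-!
Rectangles with three free sides and one wired side: the Gaussian bound for fields in a small
square, by a diagonal and an antidiagonal unfolding (plan 113), first for wide rectangles.
-/

set_option linter.all false
set_option autoImplicit false

open MeasureTheory Filter Topology
open scoped BigOperators

namespace Vale.Agent.P159.T1.H418

open Vale.Agent.P159 Vale.Agent.P159.UJ Vale.Agent.P159.H950 Vale.Agent.P159.R2.H130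
open Vale.Agent.P159.T1.H931 (zI chiI qI zI_pos zI_eq eI eI_cont eI_refl eI_congr)
open Vale.Agent.P159.T1.H532 (GLB glb_PR)
open Vale.Agent.P159.T1.H729

/-- cells on the left side of a mirror line -/
theorem left_of {r : Refl} {c : ℤ × ℤ} (h : AV (fun v => r.lam v < 0) c) (t : HT) : r.left c t := by
  by_contra h1
  have h2 := r.left2 c t h1
  have h3 := (h t).1
  omega

/-- one unfolding -/
theorem glb_refl {b : ℝ} (hb : 0 < b) {f : SF} (σ : Dir) (fl : Bool) {a : ℕ → ℤ}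
    {w : ℕ → ℕ} {K : ℕ} {δ : ℝ} (hδ : 0 < δ) (hw : ∀ᶠ N : ℕ in atTop, δ * N ≤ w N)
    {E : ℕ → Finset (ℤ × ℤ)} {I : ℕ → Set (ℤ × ℤ)} (hE : ∀ᶠ N in atTop, E N ⊆ bx (K * N))
    (hSC : ∀ᶠ N in atTop, SC (rf σ fl (a N)) (E N)) (hSI : ∀ᶠ N in atTop, SI (rf σ fl (a N)) (I N))
    (hL : LBZ b (helicity b) E I (fun N => f N - (rf σ fl (a N)).act (f N)))
    (hf : ∀ᶠ N in atTop, ∀ c d, f N c d ≠ 0 → ∀ t, (rf σ fl (a N)).left c t)
    (h : GLB b (helicity b) E I f) :
    GLB b (helicity b) (fun N => cut (rf σ fl (a N)) (w N) (E N)) I f := by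
  have hm := mod_helicity hb
  have hw4 : ∀ᶠ N in atTop, 4 ≤ w N := by
    have h1 : Tendsto (fun N : ℕ => δ * (N : ℝ)) atTop atTop :=
      tendsto_natCast_atTop_atTop.const_mul_atTop hδ
    filter_upwards [hw, h1.eventually (eventually_ge_atTop 4)] with N h2 h3
    exact_mod_cast h3.trans h2
  refine glb_cut' (cs_cut b) (rho_cut hb.le) hb.le hm.Y0 (fun N => good_rf σ fl (a N)) hw4 hSC hSI
    (C := 4 * (2 * K / δ) ^ 2) ?_ ?_ hL h
  · filter_upwards [hE, hw, hw4] with N h1 h3 h4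
    have h5 : ((E N).card : ℝ) ≤ ((bx (K * N)).card : ℝ) := by
      exact_mod_cast Finset.card_le_card h1
    rw [card_bx] at h5
    push_cast at h5
    have h6 : (4 : ℝ) ≤ w N := by exact_mod_cast h4
    have h7 : (w N : ℝ) ≤ 2 * ((w N : ℝ) - 2) := by linarith
    have h8 : δ * N ≤ 2 * ((w N : ℝ) - 2) := h3.trans h7
    have h9 : (N : ℝ) ≤ 2 * ((w N : ℝ) - 2) / δ := by
      rw [le_div_iff₀ hδ]; linarith
    have h10 : (2 * ((K : ℝ) * N)) ^ 2 ≤ (2 * ((K : ℝ) * (2 * ((w N : ℝ) - 2) / δ))) ^ 2 := by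
      gcongr
    refine h5.trans (h10.trans (le_of_eq ?_))
    field_simp
    ring
  · filter_upwards [hf] with N h1 c hc d
    by_contra h2
    obtain ⟨t, ht⟩ := hc
    exact ht (h1 c d h2 t)

/-- the rectangle -/
noncomputable def rct (xl xr yb yt : ℤ) : Finset (ℤ × ℤ) := Finset.Ico xl xr ×ˢ Finset.Ico yb yt

theorem mem_rct {xl xr yb yt : ℤ} {c : ℤ × ℤ} :
    c ∈ rct xl xr yb yt ↔ xl ≤ c.1 ∧ c.1 < xr ∧ yb ≤ c.2 ∧ c.2 < yt := by
  unfold rct
  rw [Finset.mem_product, Finset.mem_Ico, Finset.mem_Ico]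
  tauto

/-- the free spins of a rectangle with a wired upper side -/
def fre (yt : ℤ) : Set (ℤ × ℤ) := {v | v.2 < yt}

/-- the removed cells -/
def Rem (p w yb yt xr : ℤ) (c : ℤ × ℤ) : Prop :=
  (c.2 < yb ∧ p - yb - w ≤ c.1) ∨ (p - yb ≤ c.1 ∧ c.2 < yb + w) ∨
  (xr ≤ c.1 ∧ c.2 < yt) ∨ (c.2 < p - xr ∧ p - yt ≤ c.1)

theorem Rem_cm {p w yb yt xr : ℤ} {c : ℤ × ℤ} :
    Rem p w yb yt xr (p - 1 - c.2, p - 1 - c.1) ↔ Rem p w yb yt xr c := by
  unfold Rem
  simp only
  omega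

/-- the doubled domain -/
noncomputable def dom (B : Finset (ℤ × ℤ)) (p w yb yt xr : ℤ) : Finset (ℤ × ℤ) := by
  classical exact B.filter fun c => ¬ Rem p w yb yt xr c

theorem mem_dom {B : Finset (ℤ × ℤ)} {p w yb yt xr : ℤ} {c : ℤ × ℤ} :
    c ∈ dom B p w yb yt xr ↔ c ∈ B ∧ ¬ Rem p w yb yt xr c := by
  classical
  unfold dom
  rw [Finset.mem_filter]

/-- **wide rectangles with three free sides** -/
theorem glb_wide {b : ℝ} (hb : 0 < b) {F : MF} (hF : DF F) {K : ℕ} {δ : ℝ} (hδ : 0 < δ)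
    {w : ℕ → ℕ} (hw : ∀ᶠ N : ℕ in atTop, δ * N ≤ w N) (hwK : ∀ N, w N ≤ K * N)
    {xl xr yb yt p q : ℕ → ℤ} (hxl : ∀ N, |xl N| ≤ ((K * N : ℕ) : ℤ))
    (hxr : ∀ N, |xr N| ≤ ((K * N : ℕ) : ℤ)) (hyb : ∀ N, |yb N| ≤ ((K * N : ℕ) : ℤ))
    (hyt : ∀ N, |yt N| ≤ ((K * N : ℕ) : ℤ)) (hp : ∀ N, |p N| ≤ ((K * N : ℕ) : ℤ))
    (hq : ∀ N, |q N| ≤ ((K * N : ℕ) : ℤ))
    (c1 : ∀ᶠ N in atTop, q N + w N < p N - 2 * yb N - w N)
    (c2 : ∀ᶠ N in atTop, q N + w N < xr N - yt N)
    (c3 : ∀ᶠ N in atTop, xl N ≤ p N - w N - yt N)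
    (hf : ∀ᶠ N in atTop, ∀ c d, smp F N c d ≠ 0 → c ∈ rct (xl N) (xr N) (yb N) (yt N) ∧
      p N < c.1 + c.2 ∧ c.1 - c.2 + 1 < q N) :
    GLB b (helicity b) (fun N => rct (xl N) (xr N) (yb N) (yt N)) (fun N => fre (yt N))
      (smp F) := by
  classical
  have hm := mod_helicity hb
  have hblk : ∀ N : ℕ, ∃ (P : ℤ × ℤ) (L : ℕ), SC (Dir.A.refl (p N)) (blk P L) ∧
      SI (Dir.A.refl (p N)) (intR (blk P L)) ∧ bx (3 * (K * N) + 1) ⊆ blk P L ∧
      blk P L ⊆ bx (8 * (3 * (K * N) + 1 + K * N)) := by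
    intro N
    obtain ⟨P, L, h1, h2, _, _, h5, h6⟩ := big2 Dir.A (p N) 0 (3 * (K * N) + 1) (K * N) (hp N)
      (by rw [abs_zero]; exact Int.natCast_nonneg _)
    exact ⟨P, L, h1, h2, h5, h6⟩
  choose P L s1 i1 hbx hbx' using hblk
  set B : ℕ → Finset (ℤ × ℤ) := fun N => blk (P N) (L N) with hB
  set J : ℕ → Set (ℤ × ℤ) := fun N => intR (blk (P N) (L N)) with hJ
  set E : ℕ → Finset (ℤ × ℤ) := fun N => dom (B N) (p N) (w N) (yb N) (yt N) (xr N) with hE
  obtain ⟨K1, hK1⟩ : ∃ K1 : ℕ, K1 = 32 * K + 8 := ⟨_, rfl⟩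
  have hBK : ∀ᶠ N : ℕ in atTop, B N ⊆ bx (K1 * N) := by
    filter_upwards [eventually_ge_atTop 1] with N hN
    refine (hbx' N).trans (bx_mono ?_)
    rw [hK1]
    nlinarith
  have hEB : ∀ N, E N ⊆ B N := fun N c hc => (mem_dom.1 hc).1
  have hEK : ∀ᶠ N : ℕ in atTop, E N ⊆ bx (K1 * N) := by
    filter_upwards [hBK] with N h
    exact (hEB N).trans h
  have hKN : ∀ N : ℕ, ((K1 * N : ℕ) : ℤ) = 32 * ((K * N : ℕ) : ℤ) + 8 * N := by
    intro N; rw [hK1]; push_cast; ring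
  have hbm : ∀ N c, c ∈ rct (xl N) (xr N) (yb N) (yt N) → c ∈ bx (K * N) := by
    intro N c hc
    rw [mem_rct] at hc
    have a1 := abs_le.1 (hxl N)
    have a2 := abs_le.1 (hxr N)
    have a3 := abs_le.1 (hyb N)
    have a4 := abs_le.1 (hyt N)
    rw [mem_bx]
    omega
  -- the field is carried by the doubled domain
  have hfE : ∀ᶠ N in atTop, ∀ c d, smp F N c d ≠ 0 → c ∈ E N ∧
      c ∈ rct (xl N) (xr N) (yb N) (yt N) ∧ p N < c.1 + c.2 ∧ c.1 - c.2 + 1 < q N := by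
    filter_upwards [hf, c1, c2, c3] with N h1 h2 h3 h4 c d h5
    obtain ⟨e1, e2, e3⟩ := h1 c d h5
    refine ⟨mem_dom.2 ⟨hbx N (bx_mono (by omega) (hbm N c e1)), ?_⟩, e1, e2, e3⟩
    rw [mem_rct] at e1
    unfold Rem
    omega
  -- the doubled domain
  obtain ⟨M, hM⟩ : ∃ M : ℕ, M = K1 + K + 2 := ⟨_, rfl⟩
  have hMN : ∀ N : ℕ, ((M * N : ℕ) : ℤ) = ((K1 * N : ℕ) : ℤ) + ((K * N : ℕ) : ℤ) + 2 * N := by
    intro N; rw [hM]; push_cast; ring
  have g1 : GLB b (helicity b) E J (smp F) := by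
    refine v3_wedge hb hF Dir.D false false (a := q) (a' := fun N => ((3 * M * N : ℕ) : ℤ))
      (w := w) (K := 3 * M) (fun N => ?_) (fun N => ?_) hδ hw ?_ ?_ ?_
    · have h1 := hq N
      have h2 := hMN N
      have : ((3 * M * N : ℕ) : ℤ) = 3 * ((M * N : ℕ) : ℤ) := by push_cast; ring
      omega
    · rw [abs_of_nonneg (Int.natCast_nonneg _)]
    · filter_upwards [hEK] with N h1
      refine h1.trans (bx_mono ?_)
      have h2 := hMN N
      have : ((3 * M * N : ℕ) : ℤ) = 3 * ((M * N : ℕ) : ℤ) := by push_cast; ring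
      omega
    · filter_upwards [c1, c2] with N h1 h2 c h3 _ h5
      by_cases h6 : c ∈ B N
      · exfalso
        have h7 : Rem (p N) (w N) (yb N) (yt N) (xr N) c := by
          by_contra h8
          exact h5 (mem_dom.2 ⟨h6, h8⟩)
        have h9 := (AV_iff.1 h3).1
        rw [rf_lam] at h9
        simp only [eps, Bool.false_eq_true, if_false, Dir.lamZ, one_mul] at h9
        unfold Rem at h7
        omega
      · have h7 : AV (fun v => v ∉ J N) c := by
          rw [AV_iff]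
          simp only [hJ, intR, Set.mem_setOf_eq, Prod.mk_sub_mk]
          simp only [sub_zero, add_sub_cancel_right]
          tauto
        exact h7.mono fun v hv _ => hv
    · filter_upwards [hfE, hEK, eventually_ge_atTop 1] with N h1 h2 hN c d h3
      obtain ⟨e1, e2, e3, e4⟩ := h1 c d h3
      have e5 := mem_bx.1 (h2 e1)
      refine ⟨e1, fun t => left_of ?_ t, fun t => left_of ?_ t⟩
      · rw [AV_iff]
        simp only [rf_lam, eps, Bool.false_eq_true, if_false, Dir.lamZ, one_mul]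
        omega
      · rw [AV_iff]
        have h6 := hMN N
        have : ((3 * M * N : ℕ) : ℤ) = 3 * ((M * N : ℕ) : ℤ) := by push_cast; ring
        simp only [rf_lam, eps, Bool.false_eq_true, if_false, perp, Dir.lamZ, one_mul]
        omega
  have hcf := hF.cont
  have hvf := vf_of_cont hcf
  have hp1 : ∀ N : ℕ, 1 ≤ N → |(p N : ℝ) / N| ≤ K := by
    intro N hN
    have hN0 : (0 : ℝ) < N := by exact_mod_cast hN
    rw [abs_div, abs_of_pos hN0, div_le_iff₀ hN0]
    exact_mod_cast hp N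
  have hSC : ∀ N, SC (rf Dir.A true (p N)) (E N) := by
    intro N c
    rw [rf_cm]
    have h1 := s1 N c
    change ((p N - 1 - c.2, p N - 1 - c.1) : ℤ × ℤ) ∈ E N ↔ c ∈ E N
    change ((p N - 1 - c.2, p N - 1 - c.1) : ℤ × ℤ) ∈ B N ↔ c ∈ B N at h1
    simp only [hE]
    rw [mem_dom, mem_dom, h1, Rem_cm]
  have hL : LBZ b (helicity b) E J (fun N => smp F N - (rf Dir.A true (p N)).act (smp F N)) := by
    have l1 : LBZ b (helicity b) B J (fun N => smp F N - (rf Dir.A true (p N)).act (smp F N)) :=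
      lbz_blk hm (hvf.sub (rf_vf hcf Dir.A true hp1)) hBK
    refine lbz_mono hb.le (R := B) (I := J) ?_ ?_ l1
    · exact Eventually.of_forall fun N => ⟨hEB N, fun c _ t => ⟨id, id⟩⟩
    · filter_upwards [hfE] with N h1 c hc hc' d
      have e1 : smp F N c d = 0 := by
        by_contra h2
        exact hc' (h1 c d h2).1
      have e2 : smp F N ((rf Dir.A true (p N)).cm c) ((rf Dir.A true (p N)).dm d) = 0 := by
        by_contra h2
        exact hc' ((hSC N c).1 (h1 _ _ h2).1)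
      show smp F N c d - (rf Dir.A true (p N)).sg d *
        smp F N ((rf Dir.A true (p N)).cm c) ((rf Dir.A true (p N)).dm d) = 0
      rw [e1, e2]; ring
  have hleft : ∀ᶠ N in atTop, ∀ c d, smp F N c d ≠ 0 →
      AV (fun v => (rf Dir.A true (p N)).lam v < 0) c := by
    filter_upwards [hfE] with N h1 c d h2
    obtain ⟨e1, e2, e3, e4⟩ := h1 c d h2
    rw [AV_iff]
    simp only [rf_lam, eps, if_true, Dir.lamZ]
    omega
  have g2 : GLB b (helicity b) (fun N => cut (rf Dir.A true (p N)) (w N) (E N)) J (smp F) := by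
    refine glb_refl hb Dir.A true hδ hw hEK (Eventually.of_forall hSC)
      (Eventually.of_forall fun N => (i1 N).ofRefl true) hL ?_ g1
    filter_upwards [hleft] with N h1 c d h2 t
    exact left_of (h1 c d h2) t
  have hW : ∀ᶠ N in atTop, ∀ c ∈ cut (rf Dir.A true (p N)) (w N) (E N),
      c ∈ rct (xl N) (xr N) (yb N) (yt N) ∨
        ∀ t, hu c t ∉ fre (yt N) ∧ hv c t ∉ fre (yt N) := by
    filter_upwards [c3] with N h3 c hc
    obtain ⟨h4, h5⟩ := mem_cut.1 hc
    have h6 := (mem_dom.1 h4).2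
    have h7 := (AV_iff.1 h5).1
    simp only [rf_lam, eps, if_true, Dir.lamZ] at h7
    by_cases h8 : yt N ≤ c.2
    · right
      have h9 : AV (fun v => v ∉ fre (yt N)) c := by
        rw [AV_iff]
        simp only [fre, Set.mem_setOf_eq]
        omega
      exact fun t => h9 t
    · left
      rw [mem_rct]
      unfold Rem at h6
      omega
  refine H409.glb_mono' hb.le (W := fun N => cut (rf Dir.A true (p N)) (w N) (E N)) (I' := J)
    hW ?_ ?_ ?_ g2
  · refine Eventually.of_forall fun N c _ hc t => ?_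
    have h1 : AV (fun v => v ∈ J N) c := by
      have h2 := hbm N c hc
      have h3 : AV (fun v => v ∈ intR (bx (3 * (K * N) + 1))) c := by
        rw [mem_bx] at h2
        rw [AV_iff]
        simp only [intR, Set.mem_setOf_eq, mem_bx, Prod.fst_sub, Prod.snd_sub]
        rw [mem_rct] at hc
        have a1 := abs_le.1 (hxl N)
        push_cast at *
        omega
      exact h3.mono fun v hv => H950.intR_mono (hbx N) hv
    exact ⟨fun _ => (h1 t).1, fun _ => (h1 t).2⟩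
  · filter_upwards [hfE, hleft] with N h1 h2 c hc hc' d
    by_contra h3
    refine hc' (mem_cut.2 ⟨(h1 c d h3).1, (h2 c d h3).mono fun v hv => ?_⟩)
    have : (0 : ℤ) ≤ (w N : ℤ) := Int.natCast_nonneg _
    omega
  · filter_upwards [hf] with N h1 c hc hc' d
    by_contra h3
    exact hc' (h1 c d h3).1

end Vale.Agent.P159.T1.H418
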